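import Mathlib

/-! Definitions for P063 (Friedgut-Kalai threshold width), following the problem file. -/

namespace Vale.Agent.P063

/-- `Edge n r` is the set of `r`-element subsets of the vertex set `[n] = Fin n`. -/
abbrev Edge (n r : ℕ) : Type := {e : Finset (Fin n) // e.card = r}

/-- A point of `{0,1}^{E_{n,r}}`: a simple `r`-uniform hypergraph on `[n]`
(`x e = true` iff the edge `e` is present). -/
abbrev Hyp (n r : ℕ) : Type := Edge n r → Bool

/-- The image of an edge under a permutation of the vertices. -/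
def edgePerm {n r : ℕ} (σ : Equiv.Perm (Fin n)) (e : Edge n r) : Edge n r :=
  ⟨e.1.map σ.toEmbedding, by rw [Finset.card_map]; exact e.2⟩

/-- A hypergraph property: a family invariant under all permutations of the vertices. -/
def IsProperty {n r : ℕ} (P : Set (Hyp n r)) : Prop :=
  ∀ (σ : Equiv.Perm (Fin n)) (x : Hyp n r), x ∈ P → (fun e => x (edgePerm σ e)) ∈ P

/-- Increasing: adding edges preserves membership. -/
def IsIncreasing {n r : ℕ} (P : Set (Hyp n r)) : Prop :=
  ∀ x y : Hyp n r, x ∈ P → (∀ e, x e = true → y e = true) → y ∈ P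

/-- `mu p P`: probability that the random hypergraph, each edge present independently with
probability `p`, lies in `P`. -/
noncomputable def mu {n r : ℕ} (p : ℝ) (P : Set (Hyp n r)) : ℝ :=
  ∑ x : Hyp n r, P.indicator (fun y => ∏ e : Edge n r, if y e = true then p else 1 - p) x

/-- `pa P a = inf {p ∈ [0,1] : mu p P ≥ a}`. -/
noncomputable def pa {n r : ℕ} (P : Set (Hyp n r)) (a : ℝ) : ℝ :=
  sInf {p : ℝ | p ∈ Set.Icc (0 : ℝ) 1 ∧ a ≤ mu p P}

/-- The threshold width `w_ε(P) = p_{1-ε}(P) - p_ε(P)`. -/
noncomputable def width {n r : ℕ} (ε : ℝ) (P : Set (Hyp n r)) : ℝ :=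
  pa P (1 - ε) - pa P ε

end Vale.Agent.P063
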