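import Vale.Agent.P063.KKL
import Vale.Agent.P063.Defs

/-! The hypergraph part: symmetry of restrictions, counting, and the main finite inequality. -/

namespace Vale.Agent.P063

open Finset

noncomputable section

variable {n r : ℕ} {p : ℝ}

lemma mem_edgePerm (σ : Equiv.Perm (Fin n)) (e : Edge n r) (u : Fin n) :
    u ∈ (edgePerm σ e).1 ↔ σ.symm u ∈ e.1 := by
  unfold edgePerm
  simp [Finset.mem_map_equiv]

def edgeEquiv (σ : Equiv.Perm (Fin n)) : Equiv.Perm (Edge n r) where
  toFun := edgePerm σ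
  invFun := edgePerm σ.symm
  left_inv e := by
    apply Subtype.ext
    ext u
    simp [mem_edgePerm]
  right_inv e := by
    apply Subtype.ext
    ext u
    simp [mem_edgePerm]

lemma edgeEquiv_apply (σ : Equiv.Perm (Fin n)) (e : Edge n r) :
    edgeEquiv σ e = edgePerm σ e := rfl

def meet (R : Finset (Fin n)) : Finset (Edge n r) := univ.filter (fun e => ¬ Disjoint e.1 R)

lemma mem_meet (R : Finset (Fin n)) (e : Edge n r) : e ∈ meet R ↔ ∃ a ∈ e.1, a ∈ R := by
  unfold meet
  simp [Finset.not_disjoint_iff]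

lemma swap_mem {R : Finset (Fin n)} {a b : Fin n} (ha : a ∈ R) (hb : b ∈ R) {c : Fin n}
    (hc : c ∈ R) : Equiv.swap a b c ∈ R := by
  rw [Equiv.swap_apply_def]
  split_ifs <;> assumption

lemma restr_inv (f : Hyp n r → ℝ)
    (hinv : ∀ (σ : Equiv.Perm (Fin n)) x, f (fun e => x (edgePerm σ e)) = f x)
    (R : Finset (Fin n)) {a b : Fin n} (ha : a ∈ R) (hb : b ∈ R) (z x : Hyp n r) :
    restr (meet R) f z (fun e => x (edgeEquiv (Equiv.swap a b) e)) = restr (meet R) f z x := by
  unfold restr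
  rw [← hinv (Equiv.swap a b) ((meet R).piecewise x z)]
  congr 1
  funext e
  by_cases he : e ∈ meet R
  · have he' : edgePerm (Equiv.swap a b) e ∈ meet R := by
      obtain ⟨c, hc, hcR⟩ := (mem_meet R e).1 he
      refine (mem_meet R _).2 ⟨Equiv.swap a b c, ?_, swap_mem ha hb hcR⟩
      rw [mem_edgePerm]; simpa using hc
    rw [piecewise_eq_of_mem _ _ _ he, piecewise_eq_of_mem _ _ _ he', edgeEquiv_apply]
  · have hfix : edgePerm (Equiv.swap a b) e = e := by
      apply Subtype.ext
      ext u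
      rw [mem_edgePerm, Equiv.symm_swap]
      have ha' : a ∉ e.1 := fun h => he ((mem_meet R e).2 ⟨a, h, ha⟩)
      have hb' : b ∉ e.1 := fun h => he ((mem_meet R e).2 ⟨b, h, hb⟩)
      rw [Equiv.swap_apply_def]
      split_ifs with h1 h2
      · subst h1; simp [ha', hb']
      · subst h2; simp [ha', hb']
      · rfl
    rw [hfix, piecewise_eq_of_notMem _ _ _ he, piecewise_eq_of_notMem _ _ _ he]

lemma sym_infl (h0 : 0 < p) (h1 : p < 1) (f : Hyp n r → ℝ)
    (hinv : ∀ (σ : Equiv.Perm (Fin n)) x, f (fun e => x (edgePerm σ e)) = f x)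
    (R : Finset (Fin n)) (z : Hyp n r) (e : Edge n r) :
    ((R.card : ℝ) - r) * infl p (restr (meet R) f z) e ≤ tot p (restr (meet R) f z) := by
  by_cases he : e ∈ meet R
  · obtain ⟨a, hae, haR⟩ := (mem_meet R e).1 he
    set F := restr (meet R) f z with hF
    have hinj : Set.InjOn (fun b => edgePerm (Equiv.swap a b) e) (R \ e.1 : Finset (Fin n)) := by
      intro b hb b' hb' hbb
      have hb2 : b ∉ e.1 := (mem_sdiff.1 (mem_coe.1 hb)).2
      have h3 : b ∈ (edgePerm (Equiv.swap a b) e).1 := by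
        rw [mem_edgePerm]; simpa using hae
      have h4 : b ∈ (edgePerm (Equiv.swap a b') e).1 := by
        have : edgePerm (Equiv.swap a b) e = edgePerm (Equiv.swap a b') e := hbb
        rw [← this]; exact h3
      rw [mem_edgePerm, Equiv.symm_swap] at h4
      by_contra hne
      have hba : b ≠ a := fun h => hb2 (h ▸ hae)
      rw [Equiv.swap_apply_of_ne_of_ne hba hne] at h4
      exact hb2 h4
    have hcard : (R.card : ℝ) - r ≤ ((R \ e.1).card : ℝ) := by
      have := le_card_sdiff e.1 R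
      rw [e.2] at this
      have h5 : R.card ≤ (R \ e.1).card + r := by omega
      have h6 : (R.card : ℝ) ≤ (R \ e.1).card + r := by exact_mod_cast h5
      linarith
    calc _ ≤ ((R \ e.1).card : ℝ) * infl p F e :=
          mul_le_mul_of_nonneg_right hcard (infl_nonneg h0 h1 F e)
      _ = ∑ b ∈ R \ e.1, infl p F (edgePerm (Equiv.swap a b) e) := by
          rw [← nsmul_eq_mul, ← sum_const]
          refine sum_congr rfl fun b hb => ?_
          rw [← edgeEquiv_apply]
          exact (infl_perm _ F (restr_inv f hinv R haR (mem_sdiff.1 hb).1 z) e).symm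
      _ = ∑ e' ∈ (R \ e.1).image (fun b => edgePerm (Equiv.swap a b) e), infl p F e' :=
          (sum_image hinj).symm
      _ ≤ tot p F :=
          sum_le_sum_of_subset_of_nonneg (subset_univ _) fun i _ _ => infl_nonneg h0 h1 F i
  · rw [infl_restr_of_notMem _ _ _ he, mul_zero]
    exact tot_nonneg h0 h1 _

def verts (S : Finset (Edge n r)) : Finset (Fin n) := S.biUnion (fun e => e.1)

def deg (S : Finset (Edge n r)) (u : Fin n) : ℕ := (S.filter (fun e => u ∈ e.1)).card

lemma subset_verts {S : Finset (Edge n r)} {e : Edge n r} (he : e ∈ S) : e.1 ⊆ verts S :=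
  subset_biUnion_of_mem (fun e : Edge n r => e.1) he

lemma card_verts_le (S : Finset (Edge n r)) : (verts S).card ≤ r * S.card := by
  unfold verts
  refine card_biUnion_le.trans ?_
  rw [sum_congr rfl (fun e _ => e.2), sum_const, smul_eq_mul, mul_comm]

lemma sum_deg (S : Finset (Edge n r)) : ∑ u ∈ verts S, deg S u = r * S.card := by
  unfold deg
  simp only [card_filter]
  rw [sum_comm]
  have : ∀ e ∈ S, ∑ u ∈ verts S, (if u ∈ e.1 then 1 else 0) = r := by
    intro e he
    rw [← card_filter, filter_mem_eq_inter, inter_eq_right.2 (subset_verts he), e.2]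
  rw [sum_congr rfl this, sum_const, smul_eq_mul, mul_comm]

lemma deg_le (S : Finset (Edge n r)) (u : Fin n) : deg S u ≤ (verts S).card ^ (r - 1) := by
  refine le_trans ?_ (Nat.choose_le_pow _ _)
  rw [← card_powersetCard]
  unfold deg
  refine card_le_card_of_injOn (fun e => e.1.erase u) (fun e he => ?_) (fun e he e' he' h => ?_)
  · have he' := mem_filter.1 (mem_coe.1 he)
    refine mem_coe.2 (mem_powersetCard.2 ⟨(erase_subset _ _).trans (subset_verts he'.1), ?_⟩)
    rw [card_erase_of_mem he'.2, e.2]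
  · have h1 := (mem_filter.1 (mem_coe.1 he)).2
    have h2 := (mem_filter.1 (mem_coe.1 he')).2
    apply Subtype.ext
    rw [← insert_erase h1, ← insert_erase h2]
    exact congrArg (insert u) h

lemma deg_pos {S : Finset (Edge n r)} {u : Fin n} (hu : u ∈ verts S) : 1 ≤ deg S u := by
  obtain ⟨e, he, hue⟩ := mem_biUnion.1 hu
  exact card_pos.2 ⟨e, mem_filter.2 ⟨he, hue⟩⟩

lemma exists_low_deg (hr : 1 ≤ r) {S : Finset (Edge n r)} (hS : S.Nonempty) (l : ℕ)
    (hlt : (r * S.card) ^ (r - 1) < (l + 1) ^ r) : ∃ u ∈ verts S, deg S u ≤ l := by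
  by_contra hc
  push Not at hc
  obtain ⟨e, he⟩ := hS
  have hne : e.1.Nonempty := card_pos.1 (by rw [e.2]; omega)
  obtain ⟨u, hu⟩ := hne
  have huv := subset_verts he hu
  have h1 : l + 1 ≤ (verts S).card ^ (r - 1) := le_trans (hc u huv) (deg_le S u)
  have h2 : (verts S).card * (l + 1) ≤ r * S.card := by
    rw [← sum_deg, ← smul_eq_mul, ← sum_const]
    exact sum_le_sum fun u hu => hc u hu
  have h3 : (l + 1) ^ r = (l + 1) * (l + 1) ^ (r - 1) := by
    rw [← pow_succ']; congr 1; omega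
  have h4 : (l + 1) ^ r ≤ (r * S.card) ^ (r - 1) := by
    calc _ = _ := h3
      _ ≤ (verts S).card ^ (r - 1) * (l + 1) ^ (r - 1) := Nat.mul_le_mul_right _ h1
      _ = ((verts S).card * (l + 1)) ^ (r - 1) := (mul_pow _ _ _).symm
      _ ≤ _ := Nat.pow_le_pow_left h2 _
  omega

lemma count_R {S : Finset (Edge n r)} {u : Fin n} (hu : u ∈ verts S) {l v k : ℕ}
    (hd : deg S u ≤ l) (hv : (verts S).card ≤ v) :
    (n - v).choose k ≤ ((powersetCard (k + 1) (univ : Finset (Fin n))).filter
      (fun R => 1 ≤ (S ∩ meet R).card ∧ (S ∩ meet R).card ≤ l)).card := by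
  have h1 : (n - v).choose k ≤ (powersetCard k (univ \ verts S)).card := by
    rw [card_powersetCard, card_univ_sdiff, Fintype.card_fin]
    exact Nat.choose_le_choose _ (by omega)
  refine h1.trans ?_
  have hnot : ∀ R' ∈ powersetCard k (univ \ verts S), u ∉ R' := fun R' hR' h =>
    (mem_sdiff.1 ((mem_powersetCard.1 hR').1 h)).2 hu
  refine card_le_card_of_injOn (fun R' => insert u R') (fun R' hR' => ?_)
    (fun R1 h1 R2 h2 h => ?_)
  · have hR := mem_coe.1 hR'
    have e1 : S ∩ meet (insert u R') = S.filter (fun e => u ∈ e.1) := by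
      ext e
      rw [mem_inter, mem_filter, mem_meet]
      refine and_congr_right fun he => ⟨?_, fun h => ⟨u, h, mem_insert_self _ _⟩⟩
      rintro ⟨a, hae, ha⟩
      rcases mem_insert.1 ha with h | h
      · exact h ▸ hae
      · exact absurd (subset_verts he hae) (mem_sdiff.1 ((mem_powersetCard.1 hR).1 h)).2
    refine mem_coe.2 (mem_filter.2 ⟨mem_powersetCard.2 ⟨subset_univ _, ?_⟩, ?_⟩)
    · rw [card_insert_of_notMem (hnot R' hR), (mem_powersetCard.1 hR).2]
    · simp only [e1]
      exact ⟨deg_pos hu, hd⟩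
  · have h' : insert u R1 = insert u R2 := h
    rw [← erase_insert (hnot R1 (mem_coe.1 h1)), h', erase_insert (hnot R2 (mem_coe.1 h2))]

lemma choose_sub_le (m i t : ℕ) :
    m.choose (i + 1) ≤ (m - t).choose (i + 1) + t * (m - 1).choose i := by
  induction t with
  | zero => simp
  | succ t ih =>
    refine ih.trans ?_
    have : (m - t).choose (i + 1) ≤ (m - (t + 1)).choose (i + 1) + (m - 1).choose i := by
      rcases Nat.eq_zero_or_pos (m - t) with h | h
      · rw [h]; simp
      · obtain ⟨y, hy⟩ : ∃ y, m - t = y + 1 := ⟨m - t - 1, by omega⟩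
        have hy2 : m - (t + 1) = y := by omega
        rw [hy, hy2, Nat.choose_succ_succ']
        have := Nat.choose_le_choose i (show y ≤ m - 1 by omega)
        omega
    rw [add_mul, one_mul]
    omega

lemma choose_le_two_mul (m j t : ℕ) (h : 2 * t * j ≤ m) :
    m.choose j ≤ 2 * (m - t).choose j := by
  rcases j with _ | i
  · simp
  rcases m with _ | m
  · simp
  have h1 := choose_sub_le (m + 1) i t
  have h2 := Nat.add_one_mul_choose_eq m i
  simp only [Nat.add_sub_cancel] at h1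
  have h3 : (m + 1) * (2 * (t * m.choose i)) ≤ (m + 1) * (m + 1).choose (i + 1) := by
    calc (m + 1) * (2 * (t * m.choose i)) = 2 * t * ((m + 1) * m.choose i) := by ring
      _ = (2 * t * (i + 1)) * (m + 1).choose (i + 1) := by rw [h2]; ring
      _ ≤ _ := Nat.mul_le_mul_right _ h
  have h4 := Nat.le_of_mul_le_mul_left h3 (Nat.succ_pos m)
  omega

lemma choose_ratio (n k v : ℕ) (h : 2 * v * (k + 1) ≤ n) (hv : 1 ≤ v) :
    (k + 1) * n.choose (k + 1) ≤ 2 * n * (n - v).choose k := by
  obtain ⟨m, rfl⟩ : ∃ m, n = m + 1 := ⟨n - 1, by nlinarith [Nat.sub_add_cancel (show 1 ≤ n by nlinarith)]⟩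
  have h1 := Nat.add_one_mul_choose_eq m k
  have h2 := choose_le_two_mul m k v (by nlinarith)
  have h3 : (m - v).choose k ≤ (m + 1 - v).choose k := Nat.choose_le_choose _ (by omega)
  calc (k + 1) * (m + 1).choose (k + 1) = (m + 1) * m.choose k := by rw [h1]; ring
    _ ≤ (m + 1) * (2 * (m + 1 - v).choose k) :=
        Nat.mul_le_mul_left _ (h2.trans (Nat.mul_le_mul_left _ h3))
    _ = _ := by ring

/-- The main finite inequality. -/
lemma main_ineq (hr : 1 ≤ r) (h0 : 0 < p) (h1 : p < 1) (f : Hyp n r → ℝ)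
    (hf : ∀ x, f x = 0 ∨ f x = 1)
    (hinv : ∀ (σ : Equiv.Perm (Fin n)) x, f (fun e => x (edgePerm σ e)) = f x)
    (l k v : ℕ) (s Λ : ℝ) (hs : 0 < s) (hqs : 1 ≤ s * (p * (1 - p)) ^ l)
    (hK : s ^ 5 ≤ ((k + 1 : ℕ) : ℝ) - r) (hv : 1 ≤ v) (hkn : 2 * v * (k + 1) ≤ n) (hΛ : 0 < Λ)
    (hΛ2 : ∀ N : ℕ, (N : ℝ) < Λ → N ^ (r - 1) < (l + 1) ^ r ∧ N ≤ v) :
    ∑ S, (if S = ∅ then 0 else 1) * W p f S
      ≤ (2 * n / (((k + 1 : ℕ) : ℝ) * s) + r * (p * (1 - p)) / Λ) * tot p f := by
  classical
  set bad : Finset (Edge n r) → Prop := fun S => S ≠ ∅ ∧ ((r * S.card : ℕ) : ℝ) < Λ with hbad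
  set B := ∑ S, (if bad S then 1 else 0) * W p f S with hB
  have hI := tot_nonneg h0 h1 f
  have hkn' : k + 1 ≤ n := by nlinarith
  have step1 : ((n - v).choose k : ℝ) * B ≤ (n.choose (k + 1) : ℝ) * (tot p f / s) := by
    have a1 : ∀ R ∈ powersetCard (k + 1) (univ : Finset (Fin n)),
        ∑ S, (if 1 ≤ (S ∩ meet R).card ∧ (S ∩ meet R).card ≤ l then 1 else 0) * W p f S
          ≤ tot p f / s := by
      intro R hR
      refine kkl_restr h0 h1 f hf (meet R) l s (((k + 1 : ℕ) : ℝ) - r) hs hqs hK fun z e => ?_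
      have := sym_infl h0 h1 f hinv R z e
      rwa [(mem_powersetCard.1 hR).2] at this
    have a2 := sum_le_sum a1
    rw [sum_const, card_powersetCard, card_univ, Fintype.card_fin, nsmul_eq_mul, sum_comm] at a2
    refine le_trans ?_ a2
    rw [hB, mul_sum]
    refine sum_le_sum fun S _ => ?_
    rw [← sum_mul, ← mul_assoc]
    refine mul_le_mul_of_nonneg_right ?_ (W_nonneg h0 h1 f S)
    rw [sum_boole]
    split_ifs with hb
    · obtain ⟨c1, c2⟩ := hΛ2 _ hb.2
      obtain ⟨u, hu, hd⟩ := exists_low_deg hr (nonempty_iff_ne_empty.2 hb.1) l c1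
      rw [mul_one]
      exact_mod_cast count_R hu hd ((card_verts_le S).trans c2)
    · rw [mul_zero]; positivity
  have hB0 : 0 ≤ B := sum_nonneg fun S _ =>
    mul_nonneg (by split_ifs <;> norm_num) (W_nonneg h0 h1 f S)
  have hC : (0 : ℝ) < n.choose (k + 1) := by exact_mod_cast Nat.choose_pos hkn'
  have hk0 : (0 : ℝ) < ((k + 1 : ℕ) : ℝ) := by positivity
  have step2 : B ≤ 2 * n / (((k + 1 : ℕ) : ℝ) * s) * tot p f := by
    have b1 : (((k + 1 : ℕ) : ℝ)) * (n.choose (k + 1) : ℝ) ≤ 2 * n * ((n - v).choose k : ℝ) := by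
      exact_mod_cast choose_ratio n k v hkn hv
    have b2 : (n.choose (k + 1) : ℝ) * (((k + 1 : ℕ) : ℝ) * B)
        ≤ (n.choose (k + 1) : ℝ) * (2 * n * (tot p f / s)) := by
      calc _ = (((k + 1 : ℕ) : ℝ) * (n.choose (k + 1) : ℝ)) * B := by ring
        _ ≤ (2 * n * ((n - v).choose k : ℝ)) * B := mul_le_mul_of_nonneg_right b1 hB0
        _ = 2 * n * (((n - v).choose k : ℝ) * B) := by ring
        _ ≤ 2 * n * ((n.choose (k + 1) : ℝ) * (tot p f / s)) :=
            mul_le_mul_of_nonneg_left step1 (by positivity)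
        _ = _ := by ring
    have b3 := le_of_mul_le_mul_left b2 hC
    calc B = (((k + 1 : ℕ) : ℝ) * B) / ((k + 1 : ℕ) : ℝ) := by field_simp
      _ ≤ (2 * n * (tot p f / s)) / ((k + 1 : ℕ) : ℝ) := by gcongr
      _ = _ := by field_simp
  have step3 : ∑ S, (if S = ∅ then 0 else 1) * W p f S
      ≤ B + (r / Λ) * ∑ S : Finset (Edge n r), (S.card : ℝ) * W p f S := by
    rw [hB, mul_sum, ← sum_add_distrib]
    refine sum_le_sum fun S _ => ?_
    rw [← mul_assoc, ← add_mul]
    refine mul_le_mul_of_nonneg_right ?_ (W_nonneg h0 h1 f S)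
    have hnn : 0 ≤ (r : ℝ) / Λ * S.card := by positivity
    by_cases hS : S = ∅
    · rw [if_pos hS]; split_ifs <;> linarith
    · rw [if_neg hS]
      split_ifs with hb
      · linarith
      · have : Λ ≤ ((r * S.card : ℕ) : ℝ) := by
          by_contra hc
          exact hb ⟨hS, lt_of_not_ge hc⟩
        rw [zero_add, div_mul_eq_mul_div, le_div_iff₀ hΛ, one_mul]
        exact_mod_cast this
  rw [← sum_W_tot h0 h1] at step3
  calc _ ≤ _ := step3
    _ ≤ 2 * n / (((k + 1 : ℕ) : ℝ) * s) * tot p f + (r / Λ) * (p * (1 - p) * tot p f) := by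
        linarith
    _ = _ := by ring

end

end Vale.Agent.P063
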