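import Vale.Agent.P063.Cube

/-! The KKL low-degree bound, random restrictions, symmetry and Russo's formula. -/

namespace Vale.Agent.P063

open Finset

noncomputable section

variable {ι : Type} [Fintype ι] [DecidableEq ι] {p : ℝ}

lemma infl_nonneg (h0 : 0 < p) (h1 : p < 1) (f : (ι → Bool) → ℝ) (i : ι) : 0 ≤ infl p f i :=
  Ex_nonneg h0.le h1.le fun _ => sq_nonneg _

lemma tot_nonneg (h0 : 0 < p) (h1 : p < 1) (f : (ι → Bool) → ℝ) : 0 ≤ tot p f :=
  sum_nonneg fun i _ => infl_nonneg h0 h1 f i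

/-- Low-degree weight of a `{0,1,-1}`-valued function with small support. -/
lemma low_of_small (h0 : 0 < p) (h1 : p < 1) (h : (ι → Bool) → ℝ) (hh : ∀ x, h x ^ 3 = h x)
    (l : ℕ) (s : ℝ) (hs : 0 < s) (hqs : 1 ≤ s * (p * (1 - p)) ^ l)
    (hI : Ex p (fun x => h x ^ 2) * s ^ 4 ≤ 1) :
    ∑ T, (if T.card + 1 ≤ l then 1 else 0) * W p h T ≤ Ex p (fun x => h x ^ 2) / s := by
  have hq0 : 0 < p * (1 - p) := mul_pos h0 (by linarith)
  have hq1 : p * (1 - p) ≤ 1 := by nlinarith
  set I := Ex p (fun x => h x ^ 2) with hIdef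
  set L := ∑ T, (if T.card + 1 ≤ l then 1 else 0) * W p h T with hL
  have hI0 : 0 ≤ I := Ex_nonneg h0.le h1.le fun _ => sq_nonneg _
  have hL0 : 0 ≤ L := sum_nonneg fun T _ =>
    mul_nonneg (by split_ifs <;> norm_num) (W_nonneg h0 h1 h T)
  set b : Finset ι → ℝ := fun T => if T.card + 1 ≤ l then coef p h T else 0 with hb
  set g : (ι → Bool) → ℝ := fun x => ∑ T, b T * chi p T x with hg
  have e1 : Ex p (fun x => h x * g x) = L := by
    have := Ex_parseval (p := p) (coef p h) b
    simp only [← expansion h0 h1 h] at this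
    rw [hL]
    refine this.trans (sum_congr rfl fun T _ => ?_)
    simp only [hb, W]
    split_ifs <;> ring
  have e2 : ∑ T, b T ^ 2 ≤ s * L := by
    rw [hL, mul_sum]
    refine sum_le_sum fun T _ => ?_
    simp only [hb, W]
    split_ifs with hT
    · have : (p * (1 - p)) ^ l ≤ (p * (1 - p)) ^ T.card :=
        pow_le_pow_of_le_one hq0.le hq1 (by omega)
      have h2 : 1 ≤ s * (p * (1 - p)) ^ T.card :=
        hqs.trans (mul_le_mul_of_nonneg_left this hs.le)
      nlinarith [mul_le_mul_of_nonneg_left h2 (sq_nonneg (coef p h T))]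
    · simp
  have e3 : Ex p (fun x => g x ^ 4) ≤ (s * L) ^ 2 :=
    (hyper h0 h1 b).trans (pow_le_pow_left₀ (sum_nonneg fun _ _ => sq_nonneg _) e2 2)
  have c1 := Ex_cs h0.le h1.le h (fun x => h x ^ 2 * g x)
  have c2 := Ex_cs h0.le h1.le (fun x => h x ^ 2) (fun x => g x ^ 2)
  have r1 : (fun x => h x * (h x ^ 2 * g x)) = fun x => h x * g x := by
    funext x
    calc h x * (h x ^ 2 * g x) = h x ^ 3 * g x := by ring
      _ = _ := by rw [hh]
  have r2 : (fun x => (h x ^ 2 * g x) ^ 2) = fun x => h x ^ 2 * g x ^ 2 := by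
    funext x
    calc (h x ^ 2 * g x) ^ 2 = h x ^ 3 * h x * g x ^ 2 := by ring
      _ = _ := by rw [hh]; ring
  have r3 : (fun x => (h x ^ 2) ^ 2) = fun x => h x ^ 2 := by
    funext x
    calc (h x ^ 2) ^ 2 = h x ^ 3 * h x := by ring
      _ = _ := by rw [hh]; ring
  have r4 : (fun x => (g x ^ 2) ^ 2) = fun x => g x ^ 4 := by
    funext x; ring
  rw [r1, r2, e1, ← hIdef] at c1
  rw [r3, r4, ← hIdef] at c2
  set M := Ex p (fun x => h x ^ 2 * g x ^ 2) with hM
  have hM0 : 0 ≤ M := Ex_nonneg h0.le h1.le fun x => by positivity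
  have c3 : M ^ 2 ≤ I * (s * L) ^ 2 := c2.trans (mul_le_mul_of_nonneg_left e3 hI0)
  have c4 : L ^ 4 ≤ I ^ 3 * (s * L) ^ 2 := by
    calc L ^ 4 = (L ^ 2) ^ 2 := by ring
      _ ≤ (I * M) ^ 2 := pow_le_pow_left₀ (sq_nonneg _) c1 2
      _ = I ^ 2 * M ^ 2 := by ring
      _ ≤ I ^ 2 * (I * (s * L) ^ 2) := mul_le_mul_of_nonneg_left c3 (sq_nonneg _)
      _ = _ := by ring
  rcases hL0.eq_or_lt with hz | hpos
  · rw [← hz]; positivity
  · have c5 : L ^ 2 ≤ I ^ 3 * s ^ 2 := by
      have : L ^ 2 * L ^ 2 ≤ (I ^ 3 * s ^ 2) * L ^ 2 := by nlinarith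
      exact le_of_mul_le_mul_right this (by positivity)
    rw [le_div_iff₀ hs]
    refine abs_le_of_sq_le_sq' ?_ hI0 |>.2
    calc (L * s) ^ 2 = L ^ 2 * s ^ 2 := by ring
      _ ≤ I ^ 3 * s ^ 2 * s ^ 2 := mul_le_mul_of_nonneg_right c5 (sq_nonneg _)
      _ = I ^ 2 * (I * s ^ 4) := by ring
      _ ≤ I ^ 2 * 1 := mul_le_mul_of_nonneg_left hI (sq_nonneg _)
      _ = _ := by ring

/-- KKL-type bound on the weight of levels `1..l` for a Boolean function with small influences. -/
lemma kkl_low (h0 : 0 < p) (h1 : p < 1) (F : (ι → Bool) → ℝ) (hF : ∀ x, F x = 0 ∨ F x = 1)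
    (l : ℕ) (s K : ℝ) (hs : 0 < s) (hqs : 1 ≤ s * (p * (1 - p)) ^ l) (hK : s ^ 5 ≤ K)
    (hsym : ∀ i, K * infl p F i ≤ tot p F) :
    ∑ T, (if 1 ≤ T.card ∧ T.card ≤ l then 1 else 0) * W p F T ≤ tot p F / s := by
  have hq0 : 0 < p * (1 - p) := mul_pos h0 (by linarith)
  have hq1 : p * (1 - p) ≤ 1 := by nlinarith
  rcases le_or_gt s (tot p F) with hc | hc
  · calc _ ≤ ∑ T, W p F T := sum_le_sum fun T _ => by
          have := W_nonneg h0 h1 F T
          split_ifs <;> linarith
      _ = Ex p (fun x => F x ^ 2) := sum_W h0 h1 F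
      _ ≤ Ex p (fun _ => 1) := Ex_mono h0.le h1.le fun x => by
          rcases hF x with h | h <;> simp [h]
      _ = 1 := Ex_one
      _ ≤ _ := by rw [le_div_iff₀ hs]; linarith
  · have hi : ∀ i, ∑ S, (if i ∈ S then (if S.card ≤ l then 1 else 0) * W p F S else 0)
        ≤ infl p F i / s := by
      intro i
      rw [← sum_W_D h0 h1 F i (fun c => if c ≤ l then 1 else 0)]
      have hcube : ∀ x, D i F x ^ 3 = D i F x := by
        intro x
        unfold D
        rcases hF (Function.update x i true) with h | h <;>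
          rcases hF (Function.update x i false) with h' | h' <;> rw [h, h'] <;> norm_num
      have hI : Ex p (fun x => D i F x ^ 2) * s ^ 4 ≤ 1 := by
        have h2 := hsym i
        have h3 := infl_nonneg h0 h1 F i
        change infl p F i * s ^ 4 ≤ 1
        have h4 : s ^ 5 * infl p F i ≤ s :=
          (mul_le_mul_of_nonneg_right hK h3).trans (h2.trans hc.le)
        have : s * (infl p F i * s ^ 4) ≤ s * 1 := by nlinarith
        exact le_of_mul_le_mul_left this hs
      have h5 := low_of_small h0 h1 (D i F) hcube l s hs hqs hI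
      have h6 : 0 ≤ ∑ T, (if T.card + 1 ≤ l then 1 else 0) * W p (D i F) T :=
        sum_nonneg fun T _ => mul_nonneg (by split_ifs <;> norm_num) (W_nonneg h0 h1 _ T)
      calc _ ≤ 1 * ∑ T, (if T.card + 1 ≤ l then 1 else 0) * W p (D i F) T :=
            mul_le_mul_of_nonneg_right hq1 h6
        _ ≤ _ := by rw [one_mul]; exact h5
    calc _ ≤ ∑ S, ∑ i, (if i ∈ S then (if S.card ≤ l then 1 else 0) * W p F S else 0) := by
          refine sum_le_sum fun S _ => ?_
          rw [sum_ite_mem, univ_inter, sum_const, nsmul_eq_mul]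
          have hW := W_nonneg h0 h1 F S
          by_cases ha : S.card ≤ l
          · by_cases hb : 1 ≤ S.card
            · have : (1 : ℝ) ≤ S.card := by exact_mod_cast hb
              simp only [ha, hb, and_self, if_true]
              nlinarith
            · simp only [ha, hb, false_and, if_false, if_true, zero_mul, one_mul]
              positivity
          · simp [ha]
      _ = ∑ i, ∑ S, (if i ∈ S then (if S.card ≤ l then 1 else 0) * W p F S else 0) := sum_comm
      _ ≤ ∑ i, infl p F i / s := sum_le_sum fun i _ => hi i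
      _ = _ := by rw [← sum_div]; rfl

/-- The restriction of `f` that frees the coordinates in `J` and fixes the others to `z`. -/
def restr (J : Finset ι) (f : (ι → Bool) → ℝ) (z x : ι → Bool) : ℝ := f (J.piecewise x z)

omit [Fintype ι] in
lemma chi_piecewise (J S : Finset ι) (x z : ι → Bool) :
    chi p S (J.piecewise x z) = chi p (S ∩ J) x * chi p (S \ J) z := by
  unfold chi
  rw [← prod_inter_mul_prod_sdiff S J]
  congr 1
  · exact prod_congr rfl fun i hi => by rw [piecewise_eq_of_mem _ _ _ (mem_inter.1 hi).2]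
  · exact prod_congr rfl fun i hi => by rw [piecewise_eq_of_notMem _ _ _ (mem_sdiff.1 hi).2]

lemma coef_restr (h0 : 0 < p) (h1 : p < 1) (J : Finset ι) (f : (ι → Bool) → ℝ) (z : ι → Bool)
    (T : Finset ι) :
    coef p (restr J f z) T
      = ∑ S ∈ univ.filter (fun S => S ∩ J = T), coef p f S * chi p (S \ J) z := by
  have : restr J f z = fun x => ∑ T, (∑ S ∈ univ.filter (fun S => S ∩ J = T),
      coef p f S * chi p (S \ J) z) * chi p T x := by
    funext x
    unfold restr
    rw [expansion h0 h1 f (J.piecewise x z)]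
    rw [← sum_fiberwise univ (fun S : Finset ι => S ∩ J)]
    refine sum_congr rfl fun T _ => ?_
    rw [sum_mul]
    refine sum_congr rfl fun S hS => ?_
    rw [chi_piecewise, (mem_filter.1 hS).2]; ring
  rw [this, coef_of_expansion h0 h1]

lemma Ex_W_restr (h0 : 0 < p) (h1 : p < 1) (J : Finset ι) (f : (ι → Bool) → ℝ) (T : Finset ι) :
    Ex p (fun z => W p (restr J f z) T) = ∑ S ∈ univ.filter (fun S => S ∩ J = T), W p f S := by
  have h := Ex_family (p := p) (univ.filter (fun S => S ∩ J = T)) (fun S => S \ J)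
    (fun S hS S' hS' h => by
      have e1 := (mem_filter.1 hS).2
      have e2 := (mem_filter.1 hS').2
      rw [← sdiff_union_inter S J, ← sdiff_union_inter S' J, e1, e2]
      exact congrArg (· ∪ T) h) (coef p f) (coef p f)
  have : (fun z => W p (restr J f z) T) = fun z => (p * (1 - p)) ^ T.card *
      ((∑ S ∈ univ.filter (fun S => S ∩ J = T), coef p f S * chi p (S \ J) z) *
        (∑ S ∈ univ.filter (fun S => S ∩ J = T), coef p f S * chi p (S \ J) z)) := by
    funext z
    unfold W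
    rw [coef_restr h0 h1]; ring
  rw [this, Ex_const_mul, h, mul_sum]
  refine sum_congr rfl fun S hS => ?_
  have e1 := (mem_filter.1 hS).2
  have : S.card = T.card + (S \ J).card := by
    rw [← e1, add_comm, card_sdiff_add_card_inter]
  unfold W
  rw [this, pow_add]; ring

lemma Ex_sum_W_restr (h0 : 0 < p) (h1 : p < 1) (J : Finset ι) (f : (ι → Bool) → ℝ)
    (φ : Finset ι → ℝ) :
    Ex p (fun z => ∑ T, φ T * W p (restr J f z) T) = ∑ S, φ (S ∩ J) * W p f S := by
  rw [Ex_sum]
  simp only [Ex_const_mul, Ex_W_restr h0 h1]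
  rw [← sum_fiberwise univ (fun S : Finset ι => S ∩ J) (fun S => φ (S ∩ J) * W p f S)]
  refine sum_congr rfl fun T _ => ?_
  rw [mul_sum]
  refine sum_congr rfl fun S hS => ?_
  rw [(mem_filter.1 hS).2]

lemma Ex_tot_restr (h0 : 0 < p) (h1 : p < 1) (J : Finset ι) (f : (ι → Bool) → ℝ) :
    Ex p (fun z => tot p (restr J f z)) ≤ tot p f := by
  have hq0 : 0 < p * (1 - p) := mul_pos h0 (by linarith)
  refine le_of_mul_le_mul_left ?_ hq0
  rw [← Ex_const_mul]
  simp only [sum_W_tot h0 h1]
  rw [Ex_sum_W_restr h0 h1 J f (fun T => (T.card : ℝ))]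
  refine sum_le_sum fun S _ => mul_le_mul_of_nonneg_right ?_ (W_nonneg h0 h1 f S)
  exact_mod_cast card_le_card inter_subset_left

/-- The restricted KKL bound. -/
lemma kkl_restr (h0 : 0 < p) (h1 : p < 1) (f : (ι → Bool) → ℝ) (hf : ∀ x, f x = 0 ∨ f x = 1)
    (J : Finset ι) (l : ℕ) (s K : ℝ) (hs : 0 < s) (hqs : 1 ≤ s * (p * (1 - p)) ^ l)
    (hK : s ^ 5 ≤ K) (hsym : ∀ z i, K * infl p (restr J f z) i ≤ tot p (restr J f z)) :
    ∑ S, (if 1 ≤ (S ∩ J).card ∧ (S ∩ J).card ≤ l then 1 else 0) * W p f S ≤ tot p f / s := by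
  rw [← Ex_sum_W_restr h0 h1 J f (fun T => if 1 ≤ T.card ∧ T.card ≤ l then 1 else 0)]
  calc _ ≤ Ex p (fun z => s⁻¹ * tot p (restr J f z)) := Ex_mono h0.le h1.le fun z => by
        rw [← div_eq_inv_mul]
        exact kkl_low h0 h1 _ (fun x => hf _) l s K hs hqs hK (hsym z)
    _ = s⁻¹ * Ex p (fun z => tot p (restr J f z)) := Ex_const_mul _ _
    _ ≤ s⁻¹ * tot p f :=
        mul_le_mul_of_nonneg_left (Ex_tot_restr h0 h1 J f) (inv_nonneg.2 hs.le)
    _ = _ := by rw [← div_eq_inv_mul]

lemma Ex_comp_perm (τ : Equiv.Perm ι) (g : (ι → Bool) → ℝ) :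
    Ex p (fun x => g (fun i => x (τ i))) = Ex p g := by
  unfold Ex
  refine Fintype.sum_equiv (Equiv.arrowCongr τ.symm (Equiv.refl Bool)) _ _ fun x => ?_
  have e : (Equiv.arrowCongr τ.symm (Equiv.refl Bool)) x = fun i => x (τ i) := by
    funext i; simp [Equiv.arrowCongr]
  rw [e]
  congr 1
  unfold wt
  exact (Equiv.prod_comp τ (fun i => cw p (x i))).symm

lemma infl_perm (τ : Equiv.Perm ι) (F : (ι → Bool) → ℝ)
    (hF : ∀ x, F (fun i => x (τ i)) = F x) (i : ι) : infl p F (τ i) = infl p F i := by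
  unfold infl
  rw [← Ex_comp_perm τ (fun x => D i F x ^ 2)]
  congr 1
  funext x
  have : ∀ b, F (Function.update x (τ i) b) = F (Function.update (fun j => x (τ j)) i b) := by
    intro b
    rw [← hF]
    congr 1
    funext j
    by_cases hj : j = i
    · subst hj; simp
    · rw [Function.update_of_ne hj, Function.update_of_ne (fun h => hj (τ.injective h))]
  unfold D
  rw [this, this]

lemma infl_restr_of_notMem (J : Finset ι) (f : (ι → Bool) → ℝ) (z : ι → Bool) {i : ι}
    (hi : i ∉ J) : infl p (restr J f z) i = 0 := by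
  unfold infl
  have : ∀ x, D i (restr J f z) x = 0 := by
    intro x
    unfold D restr
    have : ∀ b, J.piecewise (Function.update x i b) z = J.piecewise x z := by
      intro b
      funext j
      by_cases hj : j ∈ J
      · have hne : j ≠ i := fun h => hi (h ▸ hj)
        rw [piecewise_eq_of_mem _ _ _ hj, piecewise_eq_of_mem _ _ _ hj, Function.update_of_ne hne]
      · rw [piecewise_eq_of_notMem _ _ _ hj, piecewise_eq_of_notMem _ _ _ hj]
    rw [this, this, sub_self]
  simp only [this]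
  simp [Ex]

/-- Russo's formula. -/
lemma russo (h0 : 0 < p) (h1 : p < 1) (f : (ι → Bool) → ℝ) :
    HasDerivAt (fun t => Ex t f) (∑ i, Ex p (D i f)) p := by
  have hq : p * (1 - p) ≠ 0 := (mul_pos h0 (by linarith)).ne'
  have hw : ∀ x : ι → Bool, HasDerivAt (fun t => wt t x)
      (∑ i, wt p x * psi p (x i) / (p * (1 - p))) p := by
    intro x
    have hc : ∀ i ∈ (univ : Finset ι), HasDerivAt (fun t => cw t (x i))
        (if x i = true then 1 else -1) p := by
      intro i _
      unfold cw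
      split_ifs
      · exact hasDerivAt_id p
      · simpa using (hasDerivAt_id p).const_sub 1
    have := HasDerivAt.fun_finsetProd hc
    refine HasDerivAt.congr_deriv this ?_
    refine sum_congr rfl fun i _ => ?_
    unfold wt
    rw [← mul_prod_erase univ _ (mem_univ i), smul_eq_mul]
    have hp' : (1 - p) ≠ 0 := by linarith
    have hp : p ≠ 0 := h0.ne'
    cases x i <;> simp [cw, psi] <;> field_simp
  have h2 : HasDerivAt (fun t => ∑ x, wt t x * f x)
      (∑ x, (∑ i, wt p x * psi p (x i) / (p * (1 - p))) * f x) p :=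
    HasDerivAt.fun_sum fun x _ => (hw x).mul_const (f x)
  refine HasDerivAt.congr_deriv h2 ?_
  simp only [sum_mul]
  rw [sum_comm]
  refine sum_congr rfl fun i _ => Eq.symm ?_
  rw [← coef_empty, coef_D h0 h1]
  simp only [notMem_empty, if_false, coef, Ex, chi, insert_empty_eq, prod_singleton,
    card_singleton, pow_one]
  rw [sum_div]
  refine sum_congr rfl fun x _ => by ring

end

end Vale.Agent.P063
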