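import Vale.Agent.P063.Hyper

/-! Choice of parameters: the influence inequality for every `p`. -/

namespace Vale.Agent.P063

open Finset

noncomputable section

lemma var_eq {ι : Type} [Fintype ι] [DecidableEq ι] {p : ℝ} (h0 : 0 < p) (h1 : p < 1)
    (f : (ι → Bool) → ℝ) (hf : ∀ x, f x = 0 ∨ f x = 1) :
    ∑ S, (if S = ∅ then 0 else 1) * W p f S = Ex p f * (1 - Ex p f) := by
  have h := sum_W h0 h1 f
  have e : (fun x => f x ^ 2) = f := by
    funext x; rcases hf x with h | h <;> simp [h]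
  rw [e] at h
  have h2 : ∑ S, W p f S = ∑ S, ((if S = ∅ then 0 else 1) * W p f S
      + (if S = ∅ then W p f S else 0)) := by
    refine sum_congr rfl fun S _ => ?_
    split_ifs <;> ring
  rw [h2, sum_add_distrib, sum_ite_eq', if_pos (mem_univ _), W_empty] at h
  linarith

lemma poincare {ι : Type} [Fintype ι] [DecidableEq ι] {p : ℝ} (h0 : 0 < p) (h1 : p < 1)
    (f : (ι → Bool) → ℝ) :
    ∑ S, (if S = ∅ then 0 else 1) * W p f S ≤ tot p f := by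
  have hq1 : p * (1 - p) ≤ 1 := by nlinarith
  calc _ ≤ ∑ S : Finset ι, (S.card : ℝ) * W p f S := by
        refine sum_le_sum fun S _ => mul_le_mul_of_nonneg_right ?_ (W_nonneg h0 h1 f S)
        split_ifs with h
        · positivity
        · exact_mod_cast card_pos.2 (nonempty_iff_ne_empty.2 h)
    _ = p * (1 - p) * tot p f := (sum_W_tot h0 h1 f).symm
    _ ≤ 1 * tot p f := mul_le_mul_of_nonneg_right hq1 (tot_nonneg h0 h1 f)
    _ = _ := one_mul _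

lemma two_pow_big (m : ℕ) (hm : 10 ≤ m) : 2 * (2 * m + 1) ^ 2 ≤ 2 ^ m := by
  induction m, hm using Nat.le_induction with
  | base => norm_num
  | succ m hm ih => rw [pow_succ 2 m]; nlinarith

lemma sq_le_three_two_pow (i : ℕ) : (i + 1) ^ 2 ≤ 3 * 2 ^ i := by
  rcases Nat.lt_or_ge i 2 with h | h
  · interval_cases i <;> norm_num
  · induction i, h using Nat.le_induction with
    | base => norm_num
    | succ m hm ih => rw [pow_succ 2 m]; nlinarith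

lemma rpow_le_sq {x a : ℝ} (hx : 1 ≤ x) (ha : a ≤ 2) : x ^ a ≤ x ^ 2 := by
  have := Real.rpow_le_rpow_of_exponent_le hx ha
  rwa [Real.rpow_two] at this

lemma log_le_of_lt_pow {n M : ℕ} (hn : 1 ≤ n) (h : n < 2 ^ M) : Real.log n ≤ M := by
  have h1 : (n : ℝ) ≤ 2 ^ M := by exact_mod_cast h.le
  have h2 : Real.log n ≤ Real.log (2 ^ M) :=
    Real.log_le_log (by exact_mod_cast hn) h1
  rw [Real.log_pow] at h2
  have h3 : Real.log 2 ≤ 1 := by
    have := Real.log_two_lt_d9; linarith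
  have h4 : (0 : ℝ) ≤ M := by positivity
  nlinarith

lemma big_case {n r : ℕ} (hr : 2 ≤ r) {p : ℝ} (h0 : 0 < p) (h1 : p < 1) (f : Hyp n r → ℝ)
    (hf : ∀ x, f x = 0 ∨ f x = 1)
    (hinv : ∀ (σ : Equiv.Perm (Fin n)) x, f (fun e => x (edgePerm σ e)) = f x)
    (m i l t : ℕ) (hbig : 10 + r ≤ m) (ht : t = 2 ^ m) (ht12 : t ^ 12 ≤ n)
    (hi1 : (1 / 2 : ℝ) ^ (i + 1) < p * (1 - p)) (hl1 : (i + 1) * l ≤ 2 * m) :
    ∑ S, (if S = ∅ then 0 else 1) * W p f S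
      ≤ (2 * n / (((t ^ 11 : ℕ) : ℝ) * (t : ℝ) ^ 2)
        + r * (p * (1 - p)) / ((l + 1 : ℕ) : ℝ) ^ ((r : ℝ) / (r - 1))) * tot p f := by
  obtain ⟨α, hα⟩ : ∃ α : ℝ, α = (r : ℝ) / (r - 1) := ⟨_, rfl⟩
  rw [← hα]
  have hr' : (2 : ℝ) ≤ r := by exact_mod_cast hr
  have hr1 : (0 : ℝ) < r - 1 := by linarith
  have hα2 : α ≤ 2 := by rw [hα, div_le_iff₀ hr1]; linarith
  have htbig : 2 * (2 * m + 1) ^ 2 ≤ t := by rw [ht]; exact two_pow_big m (by omega)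
  have ht1 : m + 1 ≤ t := by nlinarith
  have hl3 : l ≤ 2 * m := by nlinarith
  obtain ⟨k, hk⟩ : ∃ k, k + 1 = t ^ 11 := ⟨t ^ 11 - 1, Nat.sub_add_cancel
    (Nat.one_le_pow _ _ (by omega))⟩
  have htR : (1 : ℝ) ≤ t := by exact_mod_cast (by omega : 1 ≤ t)
  have hΛ : (0 : ℝ) < ((l + 1 : ℕ) : ℝ) ^ α := by positivity
  rw [← hk]
  refine main_ineq (p := p) (by omega) h0 h1 f hf hinv l k ((2 * m + 1) ^ 2)
    ((t : ℝ) ^ 2) (((l + 1 : ℕ) : ℝ) ^ α) (by positivity) ?_ ?_ ?_ ?_ hΛ ?_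
  · have c1 : ((1 / 2 : ℝ) ^ (i + 1)) ^ l ≤ (p * (1 - p)) ^ l :=
      pow_le_pow_left₀ (by positivity) hi1.le l
    rw [← pow_mul] at c1
    have c2 : (1 / 2 : ℝ) ^ (2 * m) ≤ (1 / 2 : ℝ) ^ ((i + 1) * l) :=
      pow_le_pow_of_le_one (by norm_num) (by norm_num) hl1
    calc (1 : ℝ) = (t : ℝ) ^ 2 * (1 / 2 : ℝ) ^ (2 * m) := by
          rw [ht]; push_cast
          rw [← pow_mul, mul_comm m 2, ← mul_pow]; norm_num
      _ ≤ _ := mul_le_mul_of_nonneg_left (c2.trans c1) (by positivity)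
  · rw [hk, le_sub_iff_add_le]
    have c1 : t ≤ t ^ 10 := Nat.le_self_pow (by norm_num) t
    have c2 : (t ^ 2) ^ 5 + r ≤ t ^ 11 := by
      have e1 : (t ^ 2) ^ 5 = t ^ 10 := by ring
      have e2 : t ^ 11 = t * t ^ 10 := by ring
      rw [e1, e2]
      have : 2 * t ^ 10 ≤ t * t ^ 10 := Nat.mul_le_mul_right _ (by omega)
      omega
    exact_mod_cast c2
  · exact Nat.one_le_pow _ _ (by omega)
  · rw [hk]
    calc _ ≤ t * t ^ 11 := Nat.mul_le_mul_right _ htbig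
      _ = t ^ 12 := by ring
      _ ≤ n := ht12
  · intro N hN
    constructor
    · have c1 : (N : ℝ) ^ (r - 1) < (((l + 1 : ℕ) : ℝ) ^ α) ^ (r - 1) :=
        pow_lt_pow_left₀ hN (by positivity) (by omega)
      have c2 : (((l + 1 : ℕ) : ℝ) ^ α) ^ (r - 1) = ((l + 1 : ℕ) : ℝ) ^ r := by
        rw [← Real.rpow_natCast, ← Real.rpow_mul (by positivity), ← Real.rpow_natCast]
        congr 1
        rw [Nat.cast_sub (by omega), hα]
        push_cast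
        field_simp
      rw [c2] at c1
      exact_mod_cast c1
    · have c1 : ((l + 1 : ℕ) : ℝ) ^ α ≤ ((l + 1 : ℕ) : ℝ) ^ 2 :=
        rpow_le_sq (by exact_mod_cast Nat.succ_pos l) hα2
      have c2 : N < (l + 1) ^ 2 := by exact_mod_cast hN.trans_le c1
      have c3 : (l + 1) ^ 2 ≤ (2 * m + 1) ^ 2 := Nat.pow_le_pow_left (by omega) 2
      omega

lemma param_bound {n r m i l t : ℕ} {q α : ℝ} (hα0 : 0 ≤ α) (hα2 : α ≤ 2) (hq0 : 0 < q)
    (hbig : 10 ≤ m) (ht : t = 2 ^ m) (ht12 : n ≤ 2 ^ 12 * t ^ 12) (hi2 : q ≤ (1 / 2 : ℝ) ^ i)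
    (hl2 : 2 * m < (i + 1) * (l + 1)) :
    (m : ℝ) ^ α * (2 * n / (((t ^ 11 : ℕ) : ℝ) * (t : ℝ) ^ 2)
        + r * q / ((l + 1 : ℕ) : ℝ) ^ α) ≤ 2 ^ 13 + 3 * r := by
  have htbig : 2 * (2 * m + 1) ^ 2 ≤ t := by rw [ht]; exact two_pow_big m hbig
  have hmR : (1 : ℝ) ≤ m := by exact_mod_cast (by omega : 1 ≤ m)
  have ht1 : 1 ≤ t := by nlinarith
  have htR : (1 : ℝ) ≤ t := by exact_mod_cast ht1
  have hΛ : (0 : ℝ) < ((l + 1 : ℕ) : ℝ) ^ α := by positivity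
  have b2 : (m : ℝ) ^ α * (2 * n / (((t ^ 11 : ℕ) : ℝ) * (t : ℝ) ^ 2)) ≤ 2 ^ 13 := by
    have c1 : (m : ℝ) ^ α ≤ t := by
      refine (rpow_le_sq hmR hα2).trans ?_
      have : m ^ 2 ≤ t := by nlinarith
      exact_mod_cast this
    have c2 : (n : ℝ) ≤ 2 ^ 12 * (t : ℝ) ^ 12 := by exact_mod_cast ht12
    calc _ ≤ (t : ℝ) * (2 * (2 ^ 12 * (t : ℝ) ^ 12) / (((t ^ 11 : ℕ) : ℝ) * (t : ℝ) ^ 2)) := by
          gcongr
      _ = _ := by push_cast; field_simp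
  have b3 : (m : ℝ) ^ α * (r * q / ((l + 1 : ℕ) : ℝ) ^ α) ≤ 3 * r := by
    have c1 : (m : ℝ) ≤ ((i + 1 : ℕ) : ℝ) * ((l + 1 : ℕ) : ℝ) := by
      have : m ≤ (i + 1) * (l + 1) := by omega
      exact_mod_cast this
    have c2 : (m : ℝ) ^ α ≤ ((i + 1 : ℕ) : ℝ) ^ 2 * ((l + 1 : ℕ) : ℝ) ^ α := by
      refine (Real.rpow_le_rpow (by positivity) c1 hα0).trans ?_
      rw [Real.mul_rpow (by positivity) (by positivity)]
      refine mul_le_mul_of_nonneg_right (rpow_le_sq ?_ hα2) hΛ.le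
      exact_mod_cast Nat.succ_pos i
    have c3 : ((i + 1 : ℕ) : ℝ) ^ 2 * q ≤ 3 := by
      have d1 : ((i + 1 : ℕ) : ℝ) ^ 2 ≤ 3 * 2 ^ i := by
        exact_mod_cast sq_le_three_two_pow i
      calc _ ≤ (3 * 2 ^ i) * (1 / 2 : ℝ) ^ i := mul_le_mul d1 hi2 hq0.le (by positivity)
        _ = 3 := by rw [mul_assoc, ← mul_pow]; norm_num
    calc _ ≤ (((i + 1 : ℕ) : ℝ) ^ 2 * ((l + 1 : ℕ) : ℝ) ^ α) *
          (r * q / ((l + 1 : ℕ) : ℝ) ^ α) := by gcongr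
      _ = r * (((i + 1 : ℕ) : ℝ) ^ 2 * q) := by field_simp
      _ ≤ r * 3 := by gcongr
      _ = _ := by ring
  rw [mul_add]
  exact add_le_add b2 b3

theorem infl_bound (r : ℕ) (hr : 2 ≤ r) : ∃ C : ℝ, 0 < C ∧ ∀ n : ℕ, r ≤ n → ∀ p : ℝ, 0 < p →
    p < 1 → ∀ f : Hyp n r → ℝ, (∀ x, f x = 0 ∨ f x = 1) →
    (∀ (σ : Equiv.Perm (Fin n)) x, f (fun e => x (edgePerm σ e)) = f x) →
    (Real.log n) ^ ((r : ℝ) / (r - 1)) * (Ex p f * (1 - Ex p f)) ≤ C * tot p f := by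
  refine ⟨(12 * (10 + r)) ^ 2 + 576 * (2 ^ 13 + 3 * r), by positivity, ?_⟩
  intro n hn p h0 h1 f hf hinv
  have hr' : (2 : ℝ) ≤ r := by exact_mod_cast hr
  have hr1 : (0 : ℝ) < r - 1 := by linarith
  have hα0 : 0 ≤ (r : ℝ) / (r - 1) := by positivity
  have hα2 : (r : ℝ) / (r - 1) ≤ 2 := by rw [div_le_iff₀ hr1]; linarith
  have hI := tot_nonneg h0 h1 f
  have hlog0 : 0 ≤ Real.log n := Real.log_nonneg (by exact_mod_cast (by omega : 1 ≤ n))
  rw [← var_eq h0 h1 f hf]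
  have hV0 : 0 ≤ ∑ S, (if S = ∅ then 0 else 1) * W p f S := sum_nonneg fun S _ =>
    mul_nonneg (by split_ifs <;> norm_num) (W_nonneg h0 h1 f S)
  obtain ⟨m, hlt, hle⟩ : ∃ m, n < 2 ^ (12 * (m + 1)) ∧ 2 ^ (12 * m) ≤ n :=
    ⟨Nat.log 2 n / 12, (Nat.lt_pow_succ_log_self (by norm_num) n).trans_le
      (Nat.pow_le_pow_right (by norm_num) (by omega)),
      (Nat.pow_le_pow_right (by norm_num) (by omega)).trans (Nat.pow_log_le_self 2 (by omega))⟩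
  have hlog : Real.log n ≤ ((12 * (m + 1) : ℕ) : ℝ) := log_le_of_lt_pow (by omega) hlt
  rcases Nat.lt_or_ge m (10 + r) with hsmall | hbig
  · have a1 : Real.log n ≤ 12 * (10 + r) := by
      refine hlog.trans ?_
      have : 12 * (m + 1) ≤ 12 * (10 + r) := by omega
      exact_mod_cast this
    have a2 : (Real.log n) ^ ((r : ℝ) / (r - 1)) ≤ (12 * (10 + (r : ℝ))) ^ 2 :=
      (Real.rpow_le_rpow hlog0 a1 hα0).trans (rpow_le_sq (by linarith) hα2)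
    calc _ ≤ (12 * (10 + (r : ℝ))) ^ 2 * tot p f :=
          mul_le_mul a2 (poincare h0 h1 f) hV0 (by positivity)
      _ ≤ _ := mul_le_mul_of_nonneg_right (le_add_of_nonneg_right (by positivity)) hI
  · have hq0 : 0 < p * (1 - p) := mul_pos h0 (by linarith)
    have hq1 : p * (1 - p) ≤ 1 := by nlinarith
    obtain ⟨i, hi1, hi2⟩ := exists_nat_pow_near_of_lt_one hq0 hq1
      (show (0 : ℝ) < 1 / 2 by norm_num) (show (1 / 2 : ℝ) < 1 by norm_num)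
    obtain ⟨l, hl1, hl2⟩ : ∃ l, (i + 1) * l ≤ 2 * m ∧ 2 * m < (i + 1) * (l + 1) :=
      ⟨2 * m / (i + 1), Nat.mul_div_le _ _, Nat.lt_mul_div_succ _ (Nat.succ_pos i)⟩
    obtain ⟨t, ht⟩ : ∃ t : ℕ, t = 2 ^ m := ⟨_, rfl⟩
    have ht12 : t ^ 12 ≤ n := by rw [ht, ← pow_mul, mul_comm]; exact hle
    have ht12' : n ≤ 2 ^ 12 * t ^ 12 := by
      rw [ht, ← pow_mul, ← pow_add]
      refine hlt.le.trans (le_of_eq ?_)
      congr 1; ring
    have hmain := big_case hr h0 h1 f hf hinv m i l t hbig ht ht12 hi1 hl1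
    have hpar := param_bound (r := r) hα0 hα2 hq0 (by omega) ht ht12' hi2 hl2
    have hmR : (1 : ℝ) ≤ m := by exact_mod_cast (by omega : 1 ≤ m)
    have b1 : (Real.log n) ^ ((r : ℝ) / (r - 1)) ≤ 576 * (m : ℝ) ^ ((r : ℝ) / (r - 1)) := by
      have : Real.log n ≤ 24 * (m : ℝ) := by
        refine hlog.trans ?_
        push_cast; linarith
      refine (Real.rpow_le_rpow hlog0 this hα0).trans ?_
      rw [Real.mul_rpow (by norm_num) (by positivity)]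
      refine mul_le_mul_of_nonneg_right ?_ (by positivity)
      refine (rpow_le_sq (by norm_num) hα2).trans (by norm_num)
    refine (mul_le_mul b1 hmain hV0 (by positivity)).trans ?_
    rw [mul_assoc, ← mul_assoc ((m : ℝ) ^ ((r : ℝ) / (r - 1))), ← mul_assoc]
    refine mul_le_mul_of_nonneg_right ?_ hI
    refine (mul_le_mul_of_nonneg_left hpar (by norm_num)).trans ?_
    exact le_add_of_nonneg_left (by positivity)

end

end Vale.Agent.P063
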