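import Vale.Agent.P063.Params

/-! From the influence inequality to the threshold width. -/

namespace Vale.Agent.P063

open Finset

noncomputable section

variable {n r : ℕ}

open Classical in
def ind (P : Set (Hyp n r)) (x : Hyp n r) : ℝ := if x ∈ P then 1 else 0

lemma ind_bool (P : Set (Hyp n r)) (x : Hyp n r) : ind P x = 0 ∨ ind P x = 1 := by
  unfold ind; split_ifs <;> simp

lemma mu_eq (p : ℝ) (P : Set (Hyp n r)) : mu p P = Ex p (ind P) := by
  unfold mu Ex
  refine sum_congr rfl fun x _ => ?_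
  unfold ind
  by_cases hx : x ∈ P
  · rw [Set.indicator_of_mem hx, if_pos hx, mul_one]; rfl
  · rw [Set.indicator_of_notMem hx, if_neg hx, mul_zero]

lemma ind_inv {P : Set (Hyp n r)} (hP : IsProperty P) (σ : Equiv.Perm (Fin n)) (x : Hyp n r) :
    ind P (fun e => x (edgePerm σ e)) = ind P x := by
  have : (fun e => x (edgePerm σ e)) ∈ P ↔ x ∈ P := by
    refine ⟨fun h => ?_, hP σ x⟩
    have h2 := hP σ.symm _ h
    have e : (fun e => (fun e => x (edgePerm σ e)) (edgePerm σ.symm e)) = x := by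
      funext e
      exact congrArg x ((edgeEquiv σ).right_inv e)
    rwa [e] at h2
  unfold ind
  by_cases hx : x ∈ P
  · rw [if_pos hx, if_pos (this.2 hx)]
  · rw [if_neg hx, if_neg (fun h => hx (this.1 h))]

lemma D_ind {P : Set (Hyp n r)} (hP : IsIncreasing P) (i : Edge n r) (x : Hyp n r) :
    D i (ind P) x ^ 2 = D i (ind P) x := by
  unfold D ind
  by_cases h1 : Function.update x i false ∈ P
  · have h2 : Function.update x i true ∈ P := by
      refine hP _ _ h1 fun e he => ?_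
      by_cases hei : e = i
      · subst hei; simp
      · rw [Function.update_of_ne hei] at he ⊢; exact he
    simp [h1, h2]
  · by_cases h2 : Function.update x i true ∈ P <;> simp [h1, h2]

lemma mu_hasDerivAt {P : Set (Hyp n r)} (hP : IsIncreasing P) {p : ℝ} (h0 : 0 < p) (h1 : p < 1) :
    HasDerivAt (fun t => mu t P) (tot p (ind P)) p := by
  simp only [mu_eq]
  refine (russo h0 h1 (ind P)).congr_deriv ?_
  unfold tot infl
  refine sum_congr rfl fun i _ => ?_
  simp only [D_ind hP]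

lemma mu_continuous (P : Set (Hyp n r)) : Continuous (fun t => mu t P) := by
  simp only [mu_eq]
  unfold Ex wt cw
  refine continuous_finsetSum _ fun x _ => Continuous.mul ?_ continuous_const
  refine continuous_finsetProd _ fun i _ => ?_
  split_ifs
  · exact continuous_id
  · exact continuous_const.sub continuous_id

lemma mu_mono {P : Set (Hyp n r)} (hP : IsIncreasing P) :
    MonotoneOn (fun t => mu t P) (Set.Icc 0 1) := by
  refine monotoneOn_of_deriv_nonneg (convex_Icc 0 1) (mu_continuous P).continuousOn ?_ ?_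
  · intro x hx
    rw [interior_Icc] at hx
    exact (mu_hasDerivAt hP hx.1 hx.2).differentiableAt.differentiableWithinAt
  · intro x hx
    rw [interior_Icc] at hx
    rw [(mu_hasDerivAt hP hx.1 hx.2).deriv]
    exact tot_nonneg hx.1 hx.2 _

lemma mu_one {P : Set (Hyp n r)} (hP : IsIncreasing P) (hne : P.Nonempty) : mu 1 P = 1 := by
  obtain ⟨x, hx⟩ := hne
  have htop : (fun _ => true) ∈ P := hP x _ hx fun _ _ => rfl
  rw [mu_eq]
  unfold Ex
  rw [sum_eq_single (fun _ => true)]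
  · simp [wt, cw, ind, htop]
  · intro y _ hy
    have : ∃ e, y e = false := by
      by_contra hc
      push Not at hc
      exact hy (funext fun e => by simpa using hc e)
    obtain ⟨e, he⟩ := this
    have : wt (1 : ℝ) y = 0 := prod_eq_zero (mem_univ e) (by simp [cw, he])
    rw [this, zero_mul]
  · intro h; exact absurd (mem_univ _) h

lemma pa_spec {P : Set (Hyp n r)} (hP : IsIncreasing P) (hne : P.Nonempty) {a : ℝ} (ha : a ≤ 1) :
    (pa P a ∈ Set.Icc (0 : ℝ) 1 ∧ a ≤ mu (pa P a) P) ∧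
      ∀ p ∈ Set.Icc (0 : ℝ) 1, p < pa P a → mu p P < a := by
  have hbdd : BddBelow {p : ℝ | p ∈ Set.Icc (0 : ℝ) 1 ∧ a ≤ mu p P} := ⟨0, fun p hp => hp.1.1⟩
  have hne' : {p : ℝ | p ∈ Set.Icc (0 : ℝ) 1 ∧ a ≤ mu p P}.Nonempty :=
    ⟨1, ⟨zero_le_one, le_rfl⟩, by rw [mu_one hP hne]; exact ha⟩
  have hcl : IsClosed {p : ℝ | p ∈ Set.Icc (0 : ℝ) 1 ∧ a ≤ mu p P} :=
    isClosed_Icc.inter (isClosed_le continuous_const (mu_continuous P))
  refine ⟨hcl.csInf_mem hne' hbdd, fun p hp hlt => ?_⟩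
  by_contra hc
  exact absurd (csInf_le hbdd ⟨hp, le_of_not_gt hc⟩) (not_le.2 hlt)

lemma width_le {P : Set (Hyp n r)} (hP : IsIncreasing P) (hne : P.Nonempty) {ε M : ℝ}
    (hε0 : 0 < ε) (hε : ε < 1 / 2) (hM : 0 < M)
    (hder : ∀ p, 0 < p → p < 1 → M * (mu p P * (1 - mu p P)) ≤ tot p (ind P)) :
    width ε P ≤ 2 * Real.log ((1 - ε) / ε) / M := by
  have hlog : 0 ≤ Real.log ((1 - ε) / ε) :=
    Real.log_nonneg (by rw [le_div_iff₀ hε0]; linarith)
  obtain ⟨⟨ha1, ha2⟩, -⟩ := pa_spec hP hne (a := ε) (by linarith)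
  obtain ⟨⟨hb1, -⟩, hb3⟩ := pa_spec hP hne (a := 1 - ε) (by linarith)
  unfold width
  obtain ⟨a, ha⟩ : ∃ a, a = pa P ε := ⟨_, rfl⟩
  obtain ⟨b, hb⟩ : ∃ b, b = pa P (1 - ε) := ⟨_, rfl⟩
  rw [← ha] at ha1 ha2 ⊢
  rw [← hb] at hb1 hb3 ⊢
  rcases le_or_gt b a with hab | hab
  · have : 0 ≤ 2 * Real.log ((1 - ε) / ε) / M := by positivity
    linarith
  have hlow : ∀ t ∈ Set.Icc a b, ε ≤ mu t P := fun t ht =>
    ha2.trans (mu_mono hP ha1 ⟨ha1.1.trans ht.1, ht.2.trans hb1.2⟩ ht.1)
  have hup : ∀ t ∈ Set.Icc a b, mu t P ≤ 1 - ε := by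
    have hcl : IsClosed {t : ℝ | mu t P ≤ 1 - ε} :=
      isClosed_le (mu_continuous P) continuous_const
    have hsub : Set.Ico a b ⊆ {t : ℝ | mu t P ≤ 1 - ε} := fun t ht =>
      (hb3 t ⟨ha1.1.trans ht.1, ht.2.le.trans hb1.2⟩ ht.2).le
    have := hcl.closure_subset_iff.2 hsub
    rw [closure_Ico hab.ne] at this
    exact fun t ht => this ht
  have hcont : ContinuousOn (fun t => Real.log (mu t P) - Real.log (1 - mu t P)) (Set.Icc a b) := by
    refine ContinuousOn.sub ?_ ?_
    · exact (mu_continuous P).continuousOn.log fun t ht => by linarith [hlow t ht]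
    · exact (continuous_const.sub (mu_continuous P)).continuousOn.log fun t ht => by
        have := hup t ht
        intro h
        have h' : 1 - mu t P = 0 := h
        linarith
  have hd : ∀ t ∈ Set.Ioo a b, HasDerivAt (fun t => Real.log (mu t P) - Real.log (1 - mu t P))
      (tot t (ind P) / mu t P - (-tot t (ind P)) / (1 - mu t P)) t := by
    intro t ht
    have t0 : 0 < t := ha1.1.trans_lt ht.1
    have t1 : t < 1 := ht.2.trans_le hb1.2
    have h1 := hlow t (Set.Ioo_subset_Icc_self ht)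
    have h2 := hup t (Set.Ioo_subset_Icc_self ht)
    have h3 := mu_hasDerivAt hP t0 t1
    exact (h3.log (by linarith)).sub ((h3.const_sub 1).log (by linarith))
  obtain ⟨c, hc, hc2⟩ := exists_hasDerivAt_eq_slope _ _ hab hcont hd
  have c0 : 0 < c := ha1.1.trans_lt hc.1
  have c1 : c < 1 := hc.2.trans_le hb1.2
  have h1 := hlow c (Set.Ioo_subset_Icc_self hc)
  have h2 := hup c (Set.Ioo_subset_Icc_self hc)
  have hm0 : 0 < mu c P := by linarith
  have hm1 : 0 < 1 - mu c P := by linarith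
  have h3 : M ≤ tot c (ind P) / mu c P - (-tot c (ind P)) / (1 - mu c P) := by
    have e : tot c (ind P) / mu c P - (-tot c (ind P)) / (1 - mu c P)
        = tot c (ind P) / (mu c P * (1 - mu c P)) := by
      field_simp; ring
    rw [e, le_div_iff₀ (mul_pos hm0 hm1)]
    exact hder c c0 c1
  rw [hc2, le_div_iff₀ (sub_pos.2 hab)] at h3
  have hε1 : 0 < 1 - ε := by linarith
  have hA := hlow a ⟨le_rfl, hab.le⟩
  have hA' := hup a ⟨le_rfl, hab.le⟩
  have hB := hlow b ⟨hab.le, le_rfl⟩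
  have hB' := hup b ⟨hab.le, le_rfl⟩
  have l1 : Real.log (mu b P) ≤ Real.log (1 - ε) := Real.log_le_log (by linarith) hB'
  have l2 : Real.log ε ≤ Real.log (1 - mu b P) := Real.log_le_log hε0 (by linarith)
  have l3 : Real.log ε ≤ Real.log (mu a P) := Real.log_le_log hε0 hA
  have l4 : Real.log (1 - mu a P) ≤ Real.log (1 - ε) := Real.log_le_log (by linarith) (by linarith)
  rw [Real.log_div hε1.ne' hε0.ne', le_div_iff₀ hM]
  linarith

theorem width_bound (r : ℕ) (hr : 2 ≤ r) : ∃ C : ℝ, 0 < C ∧ ∀ ε : ℝ, 0 < ε → ε < 1 / 2 →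
    ∀ n : ℕ, r ≤ n → ∀ P : Set (Hyp n r), IsProperty P → IsIncreasing P → P.Nonempty →
      width ε P ≤ C * Real.log ((1 - ε) / ε) * (Real.log n) ^ (-((r : ℝ) / (r - 1))) := by
  obtain ⟨C, hC, h⟩ := infl_bound r hr
  refine ⟨2 * C, by positivity, fun ε hε0 hε n hn P hP hinc hne => ?_⟩
  have hlog : 0 < Real.log n := Real.log_pos (by exact_mod_cast (by omega : 1 < n))
  have hL : 0 < (Real.log n) ^ ((r : ℝ) / (r - 1)) := Real.rpow_pos_of_pos hlog _
  have := width_le hinc hne hε0 hε (M := (Real.log n) ^ ((r : ℝ) / (r - 1)) / C) (by positivity)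
    (fun p h0 h1 => by
      have h2 := h n hn p h0 h1 (ind P) (ind_bool P) (ind_inv hP)
      rw [← mu_eq] at h2
      rw [div_mul_eq_mul_div, div_le_iff₀ hC]
      linarith)
  refine this.trans (le_of_eq ?_)
  rw [Real.rpow_neg hlog.le]
  field_simp

end

end Vale.Agent.P063
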